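import Vale.Agent.Lib.P028.Core6

open MeasureTheory Filter

namespace Vale.Agent.Lib.P028

/-- If the gcd average is bounded on the support, plain divergence suffices. -/
theorem main_bounded (γ : ℝ) (ψ : ℕ → ℝ) (hψ : ∀ q, 0 ≤ ψ q) {K : ℝ}
    (hK : ∀ r, ψ r ≠ 0 → gcdAvg ψ r ≤ K) (hdiv : ¬ Summable ψ) :
    ∀ᵐ x : ℝ, ∃ᶠ q : ℕ in atTop, |(q:ℝ) * x - γ - round ((q:ℝ) * x - γ)| < ψ q := by
  apply main_theorem γ ψ hψ
  intro hs
  apply hdiv
  set K' := max K 0 with hK'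
  have hK0 : 0 ≤ K' := le_max_right _ _
  set c := (1 + K') * (1 + Real.log (1 + K')) ^ 2 with hc
  have hlog0 : 0 ≤ Real.log (1 + K') := Real.log_nonneg (by linarith)
  have hcpos : 0 < c := by positivity
  have hle : ∀ r, ψ r ≤ c * (ψ r / ((1 + gcdAvg ψ r) * (1 + Real.log (1 + gcdAvg ψ r)) ^ 2)) := by
    intro r
    by_cases h0 : ψ r = 0
    · simp [h0]
    · have hD0 := gcdAvg_nonneg ψ r
      have hD1 : gcdAvg ψ r ≤ K' := (hK r h0).trans (le_max_left _ _)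
      have hlogD0 : 0 ≤ Real.log (1 + gcdAvg ψ r) := Real.log_nonneg (by linarith)
      have hlogle : Real.log (1 + gcdAvg ψ r) ≤ Real.log (1 + K') :=
        Real.log_le_log (by linarith) (by linarith)
      have hden : (1 + gcdAvg ψ r) * (1 + Real.log (1 + gcdAvg ψ r)) ^ 2 ≤ c := by
        apply mul_le_mul (by linarith) _ (by positivity) (by linarith)
        exact pow_le_pow_left₀ (by linarith) (by linarith) 2
      have hdenpos : 0 < (1 + gcdAvg ψ r) * (1 + Real.log (1 + gcdAvg ψ r)) ^ 2 := by positivity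
      rw [mul_div_assoc', le_div_iff₀ hdenpos, mul_comm]
      exact mul_le_mul_of_nonneg_right hden (hψ r)
  exact Summable.of_nonneg_of_le hψ hle (hs.mul_left c)

/-- Pairwise coprime support. -/
theorem main_coprime (γ : ℝ) (ψ : ℕ → ℝ) (hψ : ∀ q, 0 ≤ ψ q)
    (hsupp : ∀ q r, ψ q ≠ 0 → ψ r ≠ 0 → q ≠ r → Nat.Coprime q r) (hdiv : ¬ Summable ψ) :
    ∀ᵐ x : ℝ, ∃ᶠ q : ℕ in atTop, |(q:ℝ) * x - γ - round ((q:ℝ) * x - γ)| < ψ q := by
  apply main_bounded γ ψ hψ (K := 1) _ hdiv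
  intro r hr
  unfold gcdAvg
  rcases Nat.eq_zero_or_pos r with h0 | h0
  · subst h0
    simp
  · have hrR : (0:ℝ) < r := by exact_mod_cast h0
    rw [div_le_one hrR]
    have h1 : ∑ q ∈ (Finset.Ico 1 r).filter (fun q => ψ q ≠ 0), (Nat.gcd q r : ℝ)
        ≤ ∑ q ∈ (Finset.Ico 1 r).filter (fun q => ψ q ≠ 0), (1:ℝ) := by
      apply Finset.sum_le_sum
      intro q hq
      obtain ⟨hq1, hq2⟩ := Finset.mem_filter.mp hq
      have hne : q ≠ r := Nat.ne_of_lt (Finset.mem_Ico.mp hq1).2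
      have := hsupp q r hq2 hr hne
      rw [Nat.Coprime] at this
      simp [this]
    refine h1.trans ?_
    have h2 : ((Finset.Ico 1 r).filter (fun q => ψ q ≠ 0)).card ≤ r := by
      calc ((Finset.Ico 1 r).filter (fun q => ψ q ≠ 0)).card ≤ (Finset.Ico 1 r).card :=
            Finset.card_filter_le _ _
        _ = r - 1 := by simp
        _ ≤ r := Nat.sub_le _ _
    rw [Finset.sum_const, nsmul_eq_mul, mul_one]
    exact_mod_cast h2

/-- Support in the primes. -/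
theorem main_primes (γ : ℝ) (ψ : ℕ → ℝ) (hψ : ∀ q, 0 ≤ ψ q)
    (hsupp : ∀ q, ψ q ≠ 0 → q.Prime) (hdiv : ¬ Summable ψ) :
    ∀ᵐ x : ℝ, ∃ᶠ q : ℕ in atTop, |(q:ℝ) * x - γ - round ((q:ℝ) * x - γ)| < ψ q := by
  apply main_coprime γ ψ hψ _ hdiv
  intro q r hq hr hne
  exact (Nat.coprime_primes (hsupp q hq) (hsupp r hr)).mpr hne

end Vale.Agent.Lib.P028
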