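import Mathlib

open MeasureTheory intervalIntegral

namespace Vale.Agent.Lib.P028

/-- Distance to the nearest integer. -/
noncomputable def dn (t : ℝ) : ℝ := |t - round t|

lemma dn_nonneg (t : ℝ) : 0 ≤ dn t := abs_nonneg _

lemma dn_le_half (t : ℝ) : dn t ≤ 1 / 2 := abs_sub_round t

lemma dn_add_int (t : ℝ) (n : ℤ) : dn (t + n) = dn t := by
  unfold dn
  rw [round_add_intCast]
  push_cast
  congr 1
  ring

lemma dn_add_one (t : ℝ) : dn (t + 1) = dn t := by
  have := dn_add_int t 1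
  simpa using this

lemma dn_le_abs_sub (t : ℝ) (z : ℤ) : dn t ≤ |t - z| := round_le t z

lemma dn_lip (s t : ℝ) : |dn s - dn t| ≤ |s - t| := by
  rw [abs_le]
  have h1 : dn s ≤ dn t + |s - t| := by
    calc dn s ≤ |s - (round t : ℝ)| := dn_le_abs_sub s (round t)
      _ = |(s - t) + (t - round t)| := by ring_nf
      _ ≤ |s - t| + |t - round t| := abs_add_le _ _
      _ = dn t + |s - t| := by unfold dn; ring
  have h2 : dn t ≤ dn s + |s - t| := by
    calc dn t ≤ |t - (round s : ℝ)| := dn_le_abs_sub t (round s)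
      _ = |(t - s) + (s - round s)| := by ring_nf
      _ ≤ |t - s| + |s - round s| := abs_add_le _ _
      _ = dn s + |s - t| := by unfold dn; rw [abs_sub_comm t s]; ring
  constructor <;> linarith

lemma dn_continuous : Continuous dn := by
  have : LipschitzWith 1 dn := by
    apply LipschitzWith.of_dist_le_mul
    intro x y
    simpa [Real.dist_eq] using dn_lip x y
  exact this.continuous

lemma dn_eq_abs {v : ℝ} (hv : |v| ≤ 1 / 2) : dn v = |v| := by
  apply le_antisymm
  · have := dn_le_abs_sub v 0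
    simpa using this
  · unfold dn
    by_cases h : round v = 0
    · simp [h]
    · have h1 : (1 : ℝ) ≤ |((round v : ℤ) : ℝ)| := by
        have : (1 : ℤ) ≤ |round v| := Int.one_le_abs h
        exact_mod_cast this
      have h2 : |((round v : ℤ) : ℝ)| ≤ |v| + |v - round v| := by
        calc |((round v : ℤ) : ℝ)| = |v - (v - round v)| := by ring_nf
          _ ≤ |v| + |v - round v| := abs_sub _ _
      linarith

/-- The tent of width `ρ` around the integers. -/
noncomputable def tent (ρ t : ℝ) : ℝ := max 0 (1 - dn t / ρ)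

lemma tent_nonneg (ρ t : ℝ) : 0 ≤ tent ρ t := le_max_left _ _

lemma tent_le_one {ρ : ℝ} (hρ : 0 < ρ) (t : ℝ) : tent ρ t ≤ 1 := by
  unfold tent
  apply max_le zero_le_one
  have : 0 ≤ dn t / ρ := div_nonneg (dn_nonneg t) hρ.le
  linarith

lemma tent_pos_imp {ρ : ℝ} (hρ : 0 < ρ) {t : ℝ} (h : 0 < tent ρ t) : dn t < ρ := by
  unfold tent at h
  rcases lt_max_iff.mp h with h | h
  · exact absurd h (lt_irrefl _)
  · have : dn t / ρ < 1 := by linarith
    rwa [div_lt_one hρ] at this

lemma tent_eq_zero_of {ρ : ℝ} (hρ : 0 < ρ) {t : ℝ} (h : ¬ dn t < ρ) : tent ρ t = 0 := by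
  by_contra hne
  exact h (tent_pos_imp hρ (lt_of_le_of_ne (tent_nonneg _ _) (Ne.symm hne)))

lemma tent_continuous (ρ : ℝ) : Continuous (tent ρ) := by
  unfold tent
  exact continuous_const.max (continuous_const.sub (dn_continuous.div_const ρ))

lemma tent_add_one (ρ t : ℝ) : tent ρ (t + 1) = tent ρ t := by
  unfold tent
  rw [dn_add_one]

lemma tent_add_nat (ρ t : ℝ) (n : ℕ) : tent ρ (t + n) = tent ρ t := by
  unfold tent
  have := dn_add_int t n
  simp only [Int.cast_natCast] at this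
  rw [this]

lemma tent_lip {ρ : ℝ} (hρ : 0 < ρ) (s t : ℝ) : |tent ρ s - tent ρ t| ≤ ρ⁻¹ * |s - t| := by
  unfold tent
  have h1 : |max (0 : ℝ) (1 - dn s / ρ) - max 0 (1 - dn t / ρ)|
      ≤ |(1 - dn s / ρ) - (1 - dn t / ρ)| := by
    have := abs_max_sub_max_le_abs (1 - dn s / ρ) (1 - dn t / ρ) (0 : ℝ)
    simpa [max_comm] using this
  refine h1.trans ?_
  have h2 : (1 - dn s / ρ) - (1 - dn t / ρ) = ρ⁻¹ * (dn t - dn s) := by
    field_simp
    ring
  rw [h2, abs_mul, abs_of_pos (inv_pos.mpr hρ)]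
  apply mul_le_mul_of_nonneg_left _ (inv_pos.mpr hρ).le
  rw [abs_sub_comm]
  exact dn_lip s t

/-- The integral of the tent over a period. -/
lemma tent_integral_aux {ρ : ℝ} (hρ : 0 < ρ) (hρ' : ρ ≤ 1 / 2) :
    ∫ v in (0:ℝ)..(1/2), tent ρ v = ρ / 2 := by
  have hc : Continuous (tent ρ) := tent_continuous ρ
  have hsplit : ∫ v in (0:ℝ)..(1/2), tent ρ v
      = (∫ v in (0:ℝ)..ρ, tent ρ v) + ∫ v in ρ..(1/2), tent ρ v :=
    (integral_add_adjacent_intervals (hc.intervalIntegrable _ _) (hc.intervalIntegrable _ _)).symm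
  have h1 : ∫ v in (0:ℝ)..ρ, tent ρ v = ∫ v in (0:ℝ)..ρ, (1 - v / ρ) := by
    apply integral_congr
    intro v hv
    rw [Set.uIcc_of_le hρ.le] at hv
    have hv0 : |v| ≤ 1 / 2 := by
      rw [abs_of_nonneg hv.1]; linarith [hv.2]
    simp only
    unfold tent
    rw [dn_eq_abs hv0, abs_of_nonneg hv.1]
    apply max_eq_right
    have : v / ρ ≤ 1 := (div_le_one hρ).mpr hv.2
    linarith
  have h2 : ∫ v in ρ..(1/2), tent ρ v = ∫ v in ρ..(1/2), (0:ℝ) := by
    apply integral_congr
    intro v hv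
    rw [Set.uIcc_of_le hρ'] at hv
    have hv0 : |v| ≤ 1 / 2 := by
      rw [abs_of_nonneg (by linarith [hv.1])]; exact hv.2
    simp only
    unfold tent
    rw [dn_eq_abs hv0, abs_of_nonneg (by linarith [hv.1])]
    apply max_eq_left
    have : 1 ≤ v / ρ := (one_le_div hρ).mpr hv.1
    linarith
  rw [hsplit, h1, h2]
  have h3 : ∫ v in (0:ℝ)..ρ, (1 - v / ρ) = ρ / 2 := by
    have : ∫ v in (0:ℝ)..ρ, (1 - v / ρ) = (∫ v in (0:ℝ)..ρ, (1:ℝ)) - ∫ v in (0:ℝ)..ρ, v / ρ := by
      apply intervalIntegral.integral_sub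
      · exact continuous_const.intervalIntegrable _ _
      · exact (continuous_id.div_const ρ).intervalIntegrable _ _
    rw [this, intervalIntegral.integral_const, intervalIntegral.integral_div, integral_id]
    simp only [smul_eq_mul, sub_zero, mul_one]
    field_simp
    ring
  rw [h3]
  simp

lemma dn_neg (t : ℝ) : dn (-t) = dn t := by
  apply le_antisymm
  · calc dn (-t) ≤ |(-t) - ((-(round t) : ℤ) : ℝ)| := dn_le_abs_sub _ _
      _ = dn t := by
        unfold dn
        push_cast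
        rw [show -t - -(round t : ℝ) = -(t - round t) by ring, abs_neg]
  · calc dn t ≤ |t - ((-(round (-t)) : ℤ) : ℝ)| := dn_le_abs_sub _ _
      _ = dn (-t) := by
        unfold dn
        push_cast
        rw [show t - -(round (-t) : ℝ) = -(-t - round (-t)) by ring, abs_neg]

lemma tent_neg (ρ t : ℝ) : tent ρ (-t) = tent ρ t := by
  unfold tent
  rw [dn_neg]

lemma tent_integral {ρ : ℝ} (hρ : 0 < ρ) (hρ' : ρ ≤ 1 / 2) (γ : ℝ) :
    ∫ u in (0:ℝ)..1, tent ρ (u - γ) = ρ := by
  have hper : Function.Periodic (tent ρ) 1 := fun t => tent_add_one ρ t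
  have h1 : ∫ u in (0:ℝ)..1, tent ρ (u - γ) = ∫ v in (-γ)..(-γ + 1), tent ρ v := by
    have := intervalIntegral.integral_comp_sub_right (a := 0) (b := 1) (tent ρ) γ
    simp only [zero_sub] at this
    rw [this]
    congr 1
    ring
  have h2 : ∫ v in (-γ)..(-γ + 1), tent ρ v = ∫ v in (-(1/2):ℝ)..(-(1/2) + 1), tent ρ v :=
    hper.intervalIntegral_add_eq _ _
  have hc : Continuous (tent ρ) := tent_continuous ρ
  have h3 : ∫ v in (-(1/2):ℝ)..(-(1/2) + 1), tent ρ v
      = (∫ v in (-(1/2):ℝ)..0, tent ρ v) + ∫ v in (0:ℝ)..(1/2), tent ρ v := by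
    rw [show (-(1/2):ℝ) + 1 = 1/2 by norm_num]
    exact (integral_add_adjacent_intervals (hc.intervalIntegrable _ _)
      (hc.intervalIntegrable _ _)).symm
  have h4 : ∫ v in (-(1/2):ℝ)..0, tent ρ v = ∫ v in (0:ℝ)..(1/2), tent ρ v := by
    have := intervalIntegral.integral_comp_neg (a := 0) (b := 1/2) (tent ρ)
    simp only [tent_neg, neg_zero] at this
    exact this.symm
  rw [h1, h2, h3, h4, tent_integral_aux hρ hρ']
  ring

end Vale.Agent.Lib.P028
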