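import Vale.Agent.Lib.P028.Core1

open MeasureTheory intervalIntegral

namespace Vale.Agent.Lib.P028

/-- The basic periodisation identity. -/
lemma riemann_identity {r : ℕ} (hr : 0 < r) {f G : ℝ → ℝ} (hf : Continuous f)
    (hper : ∀ x, f (x + 1) = f x) (hG : Continuous G) :
    ∫ x in (0:ℝ)..1, G x * f (r * x)
      = ∫ u in (0:ℝ)..1, f u * ((∑ a ∈ Finset.range r, G ((u + a) / r)) / r) := by
  have hr' : (r : ℝ) ≠ 0 := by positivity
  set F : ℝ → ℝ := fun v => G (v / r) * f v with hF
  have hFc : Continuous F := (hG.comp (continuous_id.div_const _)).mul hf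
  have h1 : ∀ x : ℝ, G x * f (r * x) = F (r * x) := by
    intro x
    simp only [hF]
    rw [mul_div_cancel_left₀ x hr']
  have h2 : ∫ x in (0:ℝ)..1, F (r * x) = (r:ℝ)⁻¹ * ∫ v in (0:ℝ)..r, F v := by
    have := intervalIntegral.integral_comp_mul_left (a := 0) (b := 1) F hr'
    simpa using this
  have hnat : ∀ (a : ℕ) (x : ℝ), f (x + a) = f x := by
    intro a
    induction a with
    | zero => intro x; simp
    | succ n ih =>
      intro x
      have : x + ((n + 1 : ℕ) : ℝ) = (x + n) + 1 := by push_cast; ring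
      rw [this, hper, ih]
  have h3 : ∫ v in (0:ℝ)..r, F v
      = ∑ a ∈ Finset.range r, ∫ v in ((a:ℕ):ℝ)..((a + 1 : ℕ):ℝ), F v := by
    have := intervalIntegral.sum_integral_adjacent_intervals (f := F) (μ := volume)
      (a := fun k : ℕ => (k : ℝ)) (n := r) (fun k _ => hFc.intervalIntegrable _ _)
    simpa using this.symm
  have h4 : ∀ a : ℕ, ∫ v in ((a:ℕ):ℝ)..((a + 1 : ℕ):ℝ), F v
      = ∫ u in (0:ℝ)..1, f u * G ((u + a) / r) := by
    intro a
    have h5 := intervalIntegral.integral_comp_add_right (a := 0) (b := 1) F (a : ℝ)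
    have h6 : (0:ℝ) + a = a := by ring
    have h7 : (1:ℝ) + a = ((a + 1 : ℕ) : ℝ) := by push_cast; ring
    rw [h6, h7] at h5
    rw [← h5]
    apply intervalIntegral.integral_congr
    intro u _
    simp only [hF]
    rw [hnat]
    ring
  have h8 : ∫ u in (0:ℝ)..1, f u * ((∑ a ∈ Finset.range r, G ((u + a) / r)) / r)
      = (r:ℝ)⁻¹ * ∑ a ∈ Finset.range r, ∫ u in (0:ℝ)..1, f u * G ((u + a) / r) := by
    rw [← intervalIntegral.integral_finsetSum]
    · rw [← intervalIntegral.integral_const_mul]
      apply intervalIntegral.integral_congr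
      intro u _
      simp only
      rw [← Finset.mul_sum, div_eq_mul_inv]
      ring
    · intro a _
      apply Continuous.intervalIntegrable
      exact hf.mul (hG.comp ((continuous_id.add continuous_const).div_const _))
  rw [h8, intervalIntegral.integral_congr (fun x _ => h1 x), h2, h3]
  simp only [h4]

/-- Riemann sum average with weight one. -/
lemma riemann_avg {r : ℕ} (hr : 0 < r) {G : ℝ → ℝ} (hG : Continuous G) :
    ∫ x in (0:ℝ)..1, G x
      = ∫ u in (0:ℝ)..1, (∑ a ∈ Finset.range r, G ((u + a) / r)) / r := by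
  have := riemann_identity hr (f := fun _ => (1:ℝ)) continuous_const (fun _ => rfl) hG
  simpa using this

/-- A Lipschitz function is close to its Riemann sums. -/
lemma riemann_sum_ge {r : ℕ} (hr : 0 < r) {H : ℝ → ℝ} {L : ℝ} (hL : 0 ≤ L)
    (hH : ∀ x y, |H x - H y| ≤ L * |x - y|) (hc : Continuous H) {u : ℝ} (hu : u ∈ Set.Icc (0:ℝ) 1) :
    (∫ x in (0:ℝ)..1, H x) - L / r ≤ (∑ a ∈ Finset.range r, H ((u + a) / r)) / r := by
  have hrpos : (0:ℝ) < r := by exact_mod_cast hr
  rw [riemann_avg hr hc]
  have hR : Continuous fun w : ℝ => (∑ a ∈ Finset.range r, H ((w + a) / r)) / r := by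
    apply Continuous.div_const
    apply continuous_finsetSum
    intro a _
    exact hc.comp ((continuous_id.add continuous_const).div_const _)
  have hbound : ∀ w ∈ Set.Icc (0:ℝ) 1, (∑ a ∈ Finset.range r, H ((w + a) / r)) / r
      ≤ (∑ a ∈ Finset.range r, H ((u + a) / r)) / r + L / r := by
    intro w hw
    have : (∑ a ∈ Finset.range r, H ((w + a) / r))
        ≤ (∑ a ∈ Finset.range r, H ((u + a) / r)) + L := by
      have hsum : (∑ a ∈ Finset.range r, H ((w + a) / r))
          ≤ ∑ a ∈ Finset.range r, (H ((u + a) / r) + L / r) := by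
        apply Finset.sum_le_sum
        intro a _
        have h1 := hH ((w + a) / r) ((u + a) / r)
        have h2 : |(w + a) / (r:ℝ) - (u + a) / r| ≤ 1 / r := by
          rw [← sub_div, abs_div, abs_of_pos hrpos]
          apply div_le_div_of_nonneg_right _ hrpos.le
          have : (w + a) - (u + a) = w - u := by ring
          rw [this, abs_le]
          constructor <;> linarith [hw.1, hw.2, hu.1, hu.2]
        have h3 : L * |(w + a) / (r:ℝ) - (u + a) / r| ≤ L * (1 / r) :=
          mul_le_mul_of_nonneg_left h2 hL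
        have h4 := (abs_le.mp h1).2
        have h5 : L * (1 / (r:ℝ)) = L / r := by ring
        linarith
      refine hsum.trans (le_of_eq ?_)
      rw [Finset.sum_add_distrib, Finset.sum_const, Finset.card_range, nsmul_eq_mul]
      congr 1
      field_simp
    have h2 : (∑ a ∈ Finset.range r, H ((w + a) / r)) / r
        ≤ ((∑ a ∈ Finset.range r, H ((u + a) / r)) + L) / r :=
      div_le_div_of_nonneg_right this hrpos.le
    rwa [add_div] at h2
  have hint : ∫ w in (0:ℝ)..1, (∑ a ∈ Finset.range r, H ((w + a) / r)) / r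
      ≤ ∫ w in (0:ℝ)..1, ((∑ a ∈ Finset.range r, H ((u + a) / r)) / r + L / r) := by
    apply intervalIntegral.integral_mono_on (by norm_num)
    · exact hR.intervalIntegrable _ _
    · exact continuous_const.intervalIntegrable _ _
    · exact hbound
  rw [intervalIntegral.integral_const] at hint
  simp only [sub_zero, one_smul] at hint
  linarith

/-- Mixing: integrating a Lipschitz function against a rapidly oscillating periodic function. -/
lemma mixing_ge {r : ℕ} (hr : 0 < r) {H f : ℝ → ℝ} {L : ℝ} (hL : 0 ≤ L)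
    (hH : ∀ x y, |H x - H y| ≤ L * |x - y|) (hc : Continuous H)
    (hf : Continuous f) (hper : ∀ x, f (x + 1) = f x) (hfn : ∀ x, 0 ≤ f x) :
    ((∫ x in (0:ℝ)..1, H x) - L / r) * (∫ u in (0:ℝ)..1, f u)
      ≤ ∫ x in (0:ℝ)..1, H x * f (r * x) := by
  rw [riemann_identity hr hf hper hc]
  rw [← intervalIntegral.integral_const_mul]
  apply intervalIntegral.integral_mono_on (by norm_num)
  · exact (continuous_const.mul hf).intervalIntegrable _ _
  · apply Continuous.intervalIntegrable
    apply hf.mul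
    apply Continuous.div_const
    apply continuous_finsetSum
    intro a _
    exact hc.comp ((continuous_id.add continuous_const).div_const _)
  · intro u hu
    rw [mul_comm]
    exact mul_le_mul_of_nonneg_left (riemann_sum_ge hr hL hH hc hu) (hfn u)

/-- Counting lemma. -/
lemma count_bound {q r : ℕ} (hq : 0 < q) (hr : 0 < r) {ρ : ℝ} (hρ : 0 < ρ) (u γ : ℝ) :
    (((Finset.range r).filter fun a : ℕ => dn ((q:ℝ) * ((u + a) / r) - γ) < ρ).card : ℝ)
      ≤ 2 * ρ * r + Nat.gcd q r := by
  classical
  set d := Nat.gcd q r with hd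
  have hdpos : 0 < d := Nat.gcd_pos_of_pos_left _ hq
  obtain ⟨q', hq'⟩ : d ∣ q := Nat.gcd_dvd_left _ _
  obtain ⟨r', hr'⟩ : d ∣ r := Nat.gcd_dvd_right _ _
  have hr'pos : 0 < r' := by
    rcases Nat.eq_zero_or_pos r' with h | h
    · subst h; simp at hr'; omega
    · exact h
  have hrR : (0:ℝ) < r := by exact_mod_cast hr
  have hdR : (0:ℝ) < d := by exact_mod_cast hdpos
  set S := (Finset.range r).filter fun a : ℕ => dn ((q:ℝ) * ((u + a) / r) - γ) < ρ with hS
  -- the integer attached to `a`
  let m : ℕ → ℤ := fun a => round ((q:ℝ) * ((u + a) / r) - γ)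
  let e : ℕ → ℤ := fun a => (q' : ℤ) * a - m a * r'
  set τ : ℝ := (q:ℝ) * u - r * γ with hτ
  -- key inequality
  have hkey : ∀ a ∈ S, |(d:ℝ) * (e a : ℝ) + τ| < ρ * r := by
    intro a ha
    have ha' := (Finset.mem_filter.mp ha).2
    unfold dn at ha'
    have h1 : (d:ℝ) * (e a : ℝ) + τ = r * ((q:ℝ) * ((u + a) / r) - γ - m a) := by
      simp only [e, hτ]
      push_cast
      have hqr : (q:ℝ) = d * q' := by exact_mod_cast hq'
      have hrr : (r:ℝ) = d * r' := by exact_mod_cast hr'
      field_simp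
      rw [hqr, hrr]
      ring
    rw [h1, abs_mul, abs_of_pos hrR, mul_comm ρ]
    exact mul_lt_mul_of_pos_left ha' hrR
  -- image inside an interval of integers
  set A : ℝ := (-τ - ρ * r) / d with hA
  set B : ℝ := (-τ + ρ * r) / d with hB
  have hImg : S.image e ⊆ Finset.Icc ⌈A⌉ ⌊B⌋ := by
    intro z hz
    obtain ⟨a, ha, rfl⟩ := Finset.mem_image.mp hz
    have h := abs_lt.mp (hkey a ha)
    rw [Finset.mem_Icc]
    constructor
    · apply Int.ceil_le.mpr
      rw [hA, div_le_iff₀ hdR]
      nlinarith [h.1]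
    · apply Int.le_floor.mpr
      rw [hB, le_div_iff₀ hdR]
      nlinarith [h.2]
  have hcardImg : ((S.image e).card : ℝ) ≤ 2 * ρ * r / d + 1 := by
    have h0 := Finset.card_le_card hImg
    rw [Int.card_Icc] at h0
    have hAB : A ≤ B := by
      rw [hA, hB]
      apply div_le_div_of_nonneg_right _ hdR.le
      have : 0 ≤ ρ * r := by positivity
      linarith
    have hcast : (((⌊B⌋ + 1 - ⌈A⌉).toNat : ℕ) : ℝ) ≤ 2 * ρ * r / d + 1 := by
      by_cases hneg : ⌊B⌋ + 1 - ⌈A⌉ ≤ 0
      · have : (⌊B⌋ + 1 - ⌈A⌉).toNat = 0 := Int.toNat_of_nonpos hneg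
        rw [this]
        simp only [Nat.cast_zero]
        positivity
      · push Not at hneg
        have h1 : (((⌊B⌋ + 1 - ⌈A⌉).toNat : ℕ) : ℤ) = ⌊B⌋ + 1 - ⌈A⌉ := Int.toNat_of_nonneg hneg.le
        have h2 : (((⌊B⌋ + 1 - ⌈A⌉).toNat : ℕ) : ℝ) = ((⌊B⌋ + 1 - ⌈A⌉ : ℤ) : ℝ) := by
          exact_mod_cast h1
        rw [h2]
        push_cast
        have h3 : (⌊B⌋ : ℝ) ≤ B := Int.floor_le B
        have h4 : A ≤ (⌈A⌉ : ℝ) := Int.le_ceil A
        have h5 : B - A = 2 * ρ * r / d := by
          rw [hA, hB]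
          field_simp
          ring
        linarith
    calc ((S.image e).card : ℝ) ≤ (((⌊B⌋ + 1 - ⌈A⌉).toNat : ℕ) : ℝ) := by exact_mod_cast h0
      _ ≤ 2 * ρ * r / d + 1 := hcast
  -- fibres have at most d elements
  have hfib : ∀ z ∈ S.image e, (S.filter fun a => e a = z).card ≤ d := by
    intro z _
    have hinj : Set.InjOn (fun a : ℕ => a / r') (S.filter fun a => e a = z : Finset ℕ) := by
      intro a ha b hb hab
      have ha' := Finset.mem_filter.mp (Finset.mem_coe.mp ha)
      have hb' := Finset.mem_filter.mp (Finset.mem_coe.mp hb)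
      have hab' : a / r' = b / r' := hab
      have hcop : Nat.Coprime q' r' := by
        have := Nat.coprime_div_gcd_div_gcd (m := q) (n := r) hdpos
        rw [← hd] at this
        rwa [hq', hr', Nat.mul_div_cancel_left _ hdpos, Nat.mul_div_cancel_left _ hdpos] at this
      -- `e a = e b` gives `r' ∣ q' (a - b)` hence `r' ∣ a - b`
      have heq : (q' : ℤ) * a - m a * r' = (q' : ℤ) * b - m b * r' := by
        have h1 := ha'.2
        have h2 := hb'.2
        simp only [e] at h1 h2
        rw [h1, h2]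
      have hdvd : (r' : ℤ) ∣ (q' : ℤ) * ((a : ℤ) - b) := by
        refine ⟨m a - m b, ?_⟩
        linarith
      have hcop' : IsCoprime (r' : ℤ) (q' : ℤ) := by
        rw [Nat.isCoprime_iff_coprime]
        exact hcop.symm
      have hdvd2 : (r' : ℤ) ∣ (a : ℤ) - b := hcop'.dvd_of_dvd_mul_left hdvd
      have hmod : a % r' = b % r' := by
        have := (Int.emod_emod_of_dvd (a : ℤ) (dvd_refl (r' : ℤ)))
        have h3 : (a : ℤ) % r' = (b : ℤ) % r' := Int.emod_eq_emod_iff_emod_sub_eq_zero.mpr
          (Int.emod_eq_zero_of_dvd hdvd2)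
        exact_mod_cast h3
      calc a = r' * (a / r') + a % r' := (Nat.div_add_mod a r').symm
        _ = r' * (b / r') + b % r' := by rw [hab', hmod]
        _ = b := Nat.div_add_mod b r'
    have hmaps : Set.MapsTo (fun a : ℕ => a / r') (S.filter fun a => e a = z : Finset ℕ)
        (Finset.range d : Finset ℕ) := by
      intro a ha
      have ha' := Finset.mem_filter.mp (Finset.mem_coe.mp ha)
      have ha'' := Finset.mem_range.mp (Finset.mem_filter.mp ha'.1).1
      simp only [Finset.coe_range, Set.mem_Iio]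
      apply Nat.div_lt_of_lt_mul
      rw [hr'] at ha''
      linarith [ha'', Nat.mul_comm d r']
    have := Finset.card_le_card_of_injOn _ hmaps hinj
    simpa using this
  have hmul := Finset.card_le_mul_card_image (f := e) S d hfib
  have hfinal : (S.card : ℝ) ≤ d * (2 * ρ * r / d + 1) := by
    calc (S.card : ℝ) ≤ d * ((S.image e).card : ℝ) := by exact_mod_cast hmul
      _ ≤ d * (2 * ρ * r / d + 1) := mul_le_mul_of_nonneg_left hcardImg hdR.le
  have : (d:ℝ) * (2 * ρ * r / d + 1) = 2 * ρ * r + d := by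
    field_simp
  rw [this] at hfinal
  exact hfinal

end Vale.Agent.Lib.P028
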