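import Vale.Agent.Lib.P028.Core2

open MeasureTheory intervalIntegral

namespace Vale.Agent.Lib.P028

/-- Pointwise bound on the Riemann sum of a tent in the overlap computation. -/
lemma tent_sum_bound {q r : ℕ} (hq : 0 < q) (hr : 0 < r) {ρ : ℝ} (hρ : 0 < ρ) (u γ : ℝ) :
    (∑ a ∈ Finset.range r, tent ρ ((q:ℝ) * ((u + a) / r) - γ)) / r
      ≤ 2 * ρ + (Nat.gcd q r : ℝ) / r := by
  have hrR : (0:ℝ) < r := by exact_mod_cast hr
  have h1 : ∑ a ∈ Finset.range r, tent ρ ((q:ℝ) * ((u + a) / r) - γ)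
      ≤ (((Finset.range r).filter fun a : ℕ => dn ((q:ℝ) * ((u + a) / r) - γ) < ρ).card : ℝ) := by
    classical
    rw [Finset.card_filter]
    push_cast
    apply Finset.sum_le_sum
    intro a _
    split_ifs with h
    · exact tent_le_one hρ _
    · exact le_of_eq (tent_eq_zero_of hρ h)
  have h2 := count_bound hq hr hρ u γ
  have h3 : (∑ a ∈ Finset.range r, tent ρ ((q:ℝ) * ((u + a) / r) - γ)) / r
      ≤ (2 * ρ * r + Nat.gcd q r) / r := div_le_div_of_nonneg_right (h1.trans h2) hrR.le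
  refine h3.trans (le_of_eq ?_)
  field_simp

/-- Overlap of two tents. -/
lemma tent_overlap {q r : ℕ} (hq : 0 < q) (hr : 0 < r) {ρq ρr : ℝ} (hρq : 0 < ρq) (hρr : 0 < ρr)
    (hρr' : ρr ≤ 1 / 2) (γ : ℝ) :
    ∫ x in (0:ℝ)..1, tent ρq ((q:ℝ) * x - γ) * tent ρr ((r:ℝ) * x - γ)
      ≤ (2 * ρq + (Nat.gcd q r : ℝ) / r) * ρr := by
  have hfc : Continuous fun u : ℝ => tent ρr (u - γ) :=
    (tent_continuous ρr).comp (continuous_id.sub continuous_const)
  have hfper : ∀ x : ℝ, (fun u : ℝ => tent ρr (u - γ)) (x + 1) = (fun u : ℝ => tent ρr (u - γ)) x := by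
    intro x
    simp only
    rw [show x + 1 - γ = (x - γ) + 1 by ring, tent_add_one]
  have hGc : Continuous fun x : ℝ => tent ρq ((q:ℝ) * x - γ) :=
    (tent_continuous ρq).comp ((continuous_const.mul continuous_id).sub continuous_const)
  have hid : ∫ x in (0:ℝ)..1, tent ρq ((q:ℝ) * x - γ) * tent ρr ((r:ℝ) * x - γ)
      = ∫ u in (0:ℝ)..1, tent ρr (u - γ) *
        ((∑ a ∈ Finset.range r, tent ρq ((q:ℝ) * ((u + a) / r) - γ)) / r) :=
    riemann_identity hr hfc hfper hGc
  rw [hid]
  have hbd : ∫ u in (0:ℝ)..1, tent ρr (u - γ) *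
        ((∑ a ∈ Finset.range r, tent ρq ((q:ℝ) * ((u + a) / r) - γ)) / r)
      ≤ ∫ u in (0:ℝ)..1, tent ρr (u - γ) * (2 * ρq + (Nat.gcd q r : ℝ) / r) := by
    apply intervalIntegral.integral_mono_on (by norm_num)
    · apply Continuous.intervalIntegrable
      apply hfc.mul
      apply Continuous.div_const
      apply continuous_finsetSum
      intro a _
      exact hGc.comp ((continuous_id.add continuous_const).div_const _)
    · exact (hfc.mul continuous_const).intervalIntegrable _ _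
    · intro u _
      exact mul_le_mul_of_nonneg_left (tent_sum_bound hq hr hρq u γ) (tent_nonneg _ _)
  refine hbd.trans (le_of_eq ?_)
  rw [intervalIntegral.integral_mul_const, tent_integral hρr hρr']
  ring

/-- Weierstrass product inequality on a finset. -/
lemma one_sub_sum_le_prod {F : Finset ℕ} {x : ℕ → ℝ} (hx : ∀ r ∈ F, 0 ≤ x r ∧ x r ≤ 1) :
    1 - ∑ r ∈ F, x r ≤ ∏ r ∈ F, (1 - x r) := by
  induction F using Finset.induction_on with
  | empty => simp
  | insert a s ha ih =>
    rw [Finset.sum_insert ha, Finset.prod_insert ha]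
    have ih' := ih (fun r hr => hx r (Finset.mem_insert_of_mem hr))
    have hxa := hx a (Finset.mem_insert_self a s)
    have hsum : 0 ≤ ∑ r ∈ s, x r :=
      Finset.sum_nonneg (fun r hr => (hx r (Finset.mem_insert_of_mem hr)).1)
    nlinarith [mul_nonneg hxa.1 hsum]

lemma prod_nonneg_le_one {F : Finset ℕ} {x : ℕ → ℝ} (hx : ∀ r ∈ F, 0 ≤ x r ∧ x r ≤ 1) :
    0 ≤ ∏ r ∈ F, (1 - x r) ∧ ∏ r ∈ F, (1 - x r) ≤ 1 := by
  constructor
  · apply Finset.prod_nonneg
    intro r hr
    linarith [(hx r hr).2]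
  · apply Finset.prod_le_one
    · intro r hr
      linarith [(hx r hr).2]
    · intro r hr
      linarith [(hx r hr).1]

/-- Bonferroni for products. -/
lemma bonferroni {F : Finset ℕ} {x : ℕ → ℝ} (hx : ∀ r ∈ F, 0 ≤ x r ∧ x r ≤ 1) :
    ∏ r ∈ F, (1 - x r)
      ≤ 1 - ∑ r ∈ F, x r + ∑ r ∈ F, ∑ q ∈ F.filter (· < r), x q * x r := by
  induction F using Finset.induction_on_max with
  | empty => simp
  | insert a s hmax ih =>
    have ha : a ∉ s := fun h => lt_irrefl a (hmax a h)
    have ih' := ih (fun r hr => hx r (Finset.mem_insert_of_mem hr))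
    have hs := one_sub_sum_le_prod (F := s) (x := x) (fun r hr => hx r (Finset.mem_insert_of_mem hr))
    have hxa := hx a (Finset.mem_insert_self a s)
    rw [Finset.sum_insert ha, Finset.prod_insert ha, Finset.sum_insert ha]
    have h1 : ((insert a s).filter (· < a)) = s := by
      ext y
      simp only [Finset.mem_filter, Finset.mem_insert]
      constructor
      · rintro ⟨rfl | h, hlt⟩
        · exact absurd hlt (lt_irrefl _)
        · exact h
      · intro hy
        exact ⟨Or.inr hy, hmax y hy⟩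
    have h2 : ∑ r ∈ s, ∑ q ∈ (insert a s).filter (· < r), x q * x r
        = ∑ r ∈ s, ∑ q ∈ s.filter (· < r), x q * x r := by
      apply Finset.sum_congr rfl
      intro r hr
      apply Finset.sum_congr _ (fun _ _ => rfl)
      ext y
      simp only [Finset.mem_filter, Finset.mem_insert]
      constructor
      · rintro ⟨rfl | h, hlt⟩
        · exact absurd (lt_trans hlt (hmax r hr)) (lt_irrefl _)
        · exact ⟨h, hlt⟩
      · rintro ⟨h, hlt⟩
        exact ⟨Or.inr h, hlt⟩
    rw [h1, h2]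
    have h3 : ∑ q ∈ s, x q * x a = x a * ∑ q ∈ s, x q := by
      rw [Finset.mul_sum]
      exact Finset.sum_congr rfl (fun _ _ => mul_comm _ _)
    rw [h3]
    set P := ∏ r ∈ s, (1 - x r)
    set S := ∑ r ∈ s, x r
    set T := ∑ r ∈ s, ∑ q ∈ s.filter (· < r), x q * x r
    nlinarith [mul_nonneg hxa.1 (sub_nonneg.mpr hs)]

end Vale.Agent.Lib.P028
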