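import Vale.Agent.Lib.P028.Core3

open MeasureTheory intervalIntegral

namespace Vale.Agent.Lib.P028

/-- Admissible majorants of the indicator of the complement of the tail union. -/
def IsGood (γ : ℝ) (ψ : ℕ → ℝ) (X : ℕ) (H : ℝ → ℝ) : Prop :=
  (∃ L : ℝ, 0 ≤ L ∧ ∀ x y, |H x - H y| ≤ L * |x - y|) ∧ (∀ x, 0 ≤ H x ∧ H x ≤ 1) ∧
    ∀ x, (∀ r : ℕ, X ≤ r → ¬ dn ((r:ℝ) * x - γ) < ψ r) → H x = 1

lemma continuous_of_lip {H : ℝ → ℝ} {L : ℝ} (hL : 0 ≤ L) (h : ∀ x y, |H x - H y| ≤ L * |x - y|) :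
    Continuous H := by
  have : LipschitzWith ⟨L, hL⟩ H := by
    apply LipschitzWith.of_dist_le_mul
    intro x y
    rw [Real.dist_eq, Real.dist_eq]
    exact h x y
  exact this.continuous

lemma lip_mul {f g : ℝ → ℝ} (hf : ∀ x, 0 ≤ f x ∧ f x ≤ 1) (hg : ∀ x, 0 ≤ g x ∧ g x ≤ 1)
    {Lf Lg : ℝ} (hLf : ∀ x y, |f x - f y| ≤ Lf * |x - y|) (hLg : ∀ x y, |g x - g y| ≤ Lg * |x - y|)
    (x y : ℝ) : |f x * g x - f y * g y| ≤ (Lf + Lg) * |x - y| := by
  have h1 : f x * g x - f y * g y = (f x - f y) * g x + f y * (g x - g y) := by ring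
  rw [h1]
  refine (abs_add_le _ _).trans ?_
  rw [abs_mul, abs_mul, abs_of_nonneg (hg x).1, abs_of_nonneg (hf y).1]
  have h2 : |f x - f y| * g x ≤ |f x - f y| * 1 :=
    mul_le_mul_of_nonneg_left (hg x).2 (abs_nonneg _)
  have h3 : f y * |g x - g y| ≤ 1 * |g x - g y| :=
    mul_le_mul_of_nonneg_right (hf y).2 (abs_nonneg _)
  have h4 := hLf x y
  have h5 := hLg x y
  nlinarith

lemma lip_prod (F : Finset ℕ) (f : ℕ → ℝ → ℝ) (hf : ∀ r ∈ F, ∀ x, 0 ≤ f r x ∧ f r x ≤ 1)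
    (L : ℕ → ℝ) (hL : ∀ r ∈ F, 0 ≤ L r) (hLf : ∀ r ∈ F, ∀ x y, |f r x - f r y| ≤ L r * |x - y|) :
    (∀ x, 0 ≤ ∏ r ∈ F, f r x ∧ ∏ r ∈ F, f r x ≤ 1) ∧
      ∃ L' : ℝ, 0 ≤ L' ∧ ∀ x y, |∏ r ∈ F, f r x - ∏ r ∈ F, f r y| ≤ L' * |x - y| := by
  induction F using Finset.induction_on with
  | empty =>
    refine ⟨fun x => by simp, 0, le_rfl, fun x y => by simp⟩
  | insert a s ha ih =>
    obtain ⟨ih1, L', hL', ih2⟩ := ih (fun r hr => hf r (Finset.mem_insert_of_mem hr))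
      (fun r hr => hL r (Finset.mem_insert_of_mem hr))
      (fun r hr => hLf r (Finset.mem_insert_of_mem hr))
    have hfa := hf a (Finset.mem_insert_self a s)
    have hLa := hL a (Finset.mem_insert_self a s)
    have hLfa := hLf a (Finset.mem_insert_self a s)
    constructor
    · intro x
      rw [Finset.prod_insert ha]
      have h1 := hfa x
      have h2 := ih1 x
      exact ⟨mul_nonneg h1.1 h2.1, by nlinarith [h1.1, h1.2, h2.1, h2.2]⟩
    · refine ⟨L a + L', by linarith, fun x y => ?_⟩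
      rw [Finset.prod_insert ha, Finset.prod_insert ha]
      exact lip_mul hfa ih1 hLfa ih2 x y

/-- One step of the descent. -/
lemma block_step {γ : ℝ} {ψ : ℕ → ℝ} {X : ℕ} {H : ℝ → ℝ} (hH : IsGood γ ψ X H)
    (hgpos : 0 < ∫ x in (0:ℝ)..1, H x)
    (hlev : ∀ Y : ℕ, ∃ (F : Finset ℕ) (D : ℝ),
      (∀ r ∈ F, Y ≤ r ∧ 0 < ψ r ∧ ψ r ≤ 1 / 2) ∧
      (∀ r ∈ F, (∑ q ∈ F.filter (· < r), (Nat.gcd q r : ℝ)) / r ≤ D) ∧
      1 ≤ ∑ r ∈ F, ψ r ∧ D ≤ ∑ r ∈ F, ψ r) :
    ∃ H', IsGood γ ψ X H' ∧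
      ∫ x in (0:ℝ)..1, H' x ≤ (∫ x in (0:ℝ)..1, H x) - (∫ x in (0:ℝ)..1, H x) ^ 2 / 48 := by
  classical
  obtain ⟨⟨L, hL0, hL⟩, hH01, hH1⟩ := hH
  have hHc : Continuous H := continuous_of_lip hL0 hL
  set g := ∫ x in (0:ℝ)..1, H x with hg
  have hgle : g ≤ 1 := by
    have : ∫ x in (0:ℝ)..1, H x ≤ ∫ x in (0:ℝ)..1, (1:ℝ) := by
      apply intervalIntegral.integral_mono_on (by norm_num)
      · exact hHc.intervalIntegrable _ _
      · exact continuous_const.intervalIntegrable _ _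
      · intro x _
        exact (hH01 x).2
    simpa using this
  -- choose the threshold
  obtain ⟨Y0, hY0⟩ := exists_nat_ge (2 * L / g)
  set Y := max (max X 1) Y0 with hY
  obtain ⟨F, D, hF, hFD, hM1, hMD⟩ := hlev Y
  set M := ∑ r ∈ F, ψ r with hM
  have hMpos : 0 < M := by linarith
  set p := g / (12 * M) with hp
  have hp0 : 0 < p := by positivity
  have hp1 : p ≤ 1 := by
    rw [hp, div_le_one (by positivity)]
    nlinarith
  have hrpos : ∀ r ∈ F, 0 < r := by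
    intro r hr
    have h1 : Y ≤ r := (hF r hr).1
    have h2 : 1 ≤ Y := le_trans (le_max_right _ _) (le_max_left _ _)
    omega
  have hrX : ∀ r ∈ F, X ≤ r := by
    intro r hr
    have h1 : Y ≤ r := (hF r hr).1
    have h2 : X ≤ Y := le_trans (le_max_left _ _) (le_max_left _ _)
    omega
  have hψpos : ∀ r ∈ F, 0 < ψ r := fun r hr => (hF r hr).2.1
  have hψle : ∀ r ∈ F, ψ r ≤ 1 / 2 := fun r hr => (hF r hr).2.2
  -- the tents
  set Φ : ℕ → ℝ → ℝ := fun r x => tent (ψ r) ((r:ℝ) * x - γ) with hΦ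
  have hΦc : ∀ r, Continuous (Φ r) := fun r =>
    (tent_continuous (ψ r)).comp ((continuous_const.mul continuous_id).sub continuous_const)
  have hΦ0 : ∀ r x, 0 ≤ Φ r x := fun r x => tent_nonneg _ _
  have hΦ1 : ∀ r ∈ F, ∀ x, Φ r x ≤ 1 := fun r hr x => tent_le_one (hψpos r hr) _
  have hx01 : ∀ x, ∀ r ∈ F, 0 ≤ p * Φ r x ∧ p * Φ r x ≤ 1 := by
    intro x r hr
    refine ⟨mul_nonneg hp0.le (hΦ0 r x), ?_⟩
    have := hΦ1 r hr x
    nlinarith [hΦ0 r x]
  -- Lipschitz factors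
  have hfac : ∀ r ∈ F, ∀ x, 0 ≤ 1 - p * Φ r x ∧ 1 - p * Φ r x ≤ 1 := by
    intro r hr x
    have := hx01 x r hr
    constructor <;> linarith
  have hfacL : ∀ r ∈ F, ∀ x y, |(1 - p * Φ r x) - (1 - p * Φ r y)|
      ≤ (p * ((ψ r)⁻¹ * r)) * |x - y| := by
    intro r hr x y
    have hψ := hψpos r hr
    have h1 : (1 - p * Φ r x) - (1 - p * Φ r y) = p * (Φ r y - Φ r x) := by ring
    rw [h1, abs_mul, abs_of_pos hp0, mul_assoc]
    apply mul_le_mul_of_nonneg_left _ hp0.le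
    have h2 := tent_lip hψ ((r:ℝ) * y - γ) ((r:ℝ) * x - γ)
    have h3 : ((r:ℝ) * y - γ) - ((r:ℝ) * x - γ) = (r:ℝ) * (y - x) := by ring
    rw [h3, abs_mul, abs_of_nonneg (Nat.cast_nonneg r : (0:ℝ) ≤ (r:ℝ)), abs_sub_comm y x] at h2
    calc |Φ r y - Φ r x| ≤ (ψ r)⁻¹ * ((r:ℝ) * |x - y|) := h2
      _ = (ψ r)⁻¹ * r * |x - y| := by ring
  obtain ⟨hP01, LP, hLP0, hLP⟩ := lip_prod F (fun r x => 1 - p * Φ r x) hfac
    (fun r => p * ((ψ r)⁻¹ * r))
    (fun r hr => by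
      have := hψpos r hr
      positivity) hfacL
  set P : ℝ → ℝ := fun x => ∏ r ∈ F, (1 - p * Φ r x) with hPdef
  set H' : ℝ → ℝ := fun x => H x * P x with hH'
  have hH'good : IsGood γ ψ X H' := by
    refine ⟨⟨L + LP, by linarith, fun x y => lip_mul hH01 hP01 hL hLP x y⟩, fun x => ?_, fun x hx => ?_⟩
    · have h1 := hH01 x
      have h2 := hP01 x
      exact ⟨mul_nonneg h1.1 h2.1, by nlinarith [h1.1, h1.2, h2.1, h2.2]⟩
    · have h1 : H x = 1 := hH1 x hx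
      have h2 : P x = 1 := by
        apply Finset.prod_eq_one
        intro r hr
        have := tent_eq_zero_of (hψpos r hr) (hx r (hrX r hr))
        simp only [hΦ]
        rw [this]
        ring
      simp only [hH', h1, h2, one_mul]
  refine ⟨H', hH'good, ?_⟩
  -- the pointwise bound
  set R : ℝ → ℝ := fun x => H x - p * ∑ r ∈ F, (H x * Φ r x)
      + p ^ 2 * ∑ r ∈ F, ∑ q ∈ F.filter (· < r), Φ q x * Φ r x with hR
  have hptw : ∀ x, H' x ≤ R x := by
    intro x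
    have hb := bonferroni (F := F) (x := fun r => p * Φ r x) (hx01 x)
    have hH0 := hH01 x
    have h1 : H' x ≤ H x * (1 - ∑ r ∈ F, p * Φ r x
        + ∑ r ∈ F, ∑ q ∈ F.filter (· < r), (p * Φ q x) * (p * Φ r x)) :=
      mul_le_mul_of_nonneg_left hb hH0.1
    refine h1.trans ?_
    have h2 : ∑ r ∈ F, p * Φ r x = p * ∑ r ∈ F, Φ r x := by rw [Finset.mul_sum]
    have h3 : ∑ r ∈ F, ∑ q ∈ F.filter (· < r), (p * Φ q x) * (p * Φ r x)
        = p ^ 2 * ∑ r ∈ F, ∑ q ∈ F.filter (· < r), Φ q x * Φ r x := by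
      rw [Finset.mul_sum]
      apply Finset.sum_congr rfl
      intro r _
      rw [Finset.mul_sum]
      apply Finset.sum_congr rfl
      intro q _
      ring
    have h4 : ∑ r ∈ F, (H x * Φ r x) = H x * ∑ r ∈ F, Φ r x := by rw [Finset.mul_sum]
    simp only [hR]
    rw [h2, h3, h4]
    set S := ∑ r ∈ F, Φ r x
    set T := ∑ r ∈ F, ∑ q ∈ F.filter (· < r), Φ q x * Φ r x
    have hT : 0 ≤ T := Finset.sum_nonneg (fun r _ => Finset.sum_nonneg
      (fun q _ => mul_nonneg (hΦ0 q x) (hΦ0 r x)))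
    have hp2T : 0 ≤ p ^ 2 * T := by positivity
    nlinarith [hH0.1, hH0.2, mul_nonneg hp2T (sub_nonneg.mpr hH0.2)]
  -- integrate
  have hH'c : Continuous H' := continuous_of_lip (by linarith)
    (fun x y => lip_mul hH01 hP01 hL hLP x y)
  have h1c : ∀ r, Continuous fun x => H x * Φ r x := fun r => hHc.mul (hΦc r)
  have h2c : ∀ q r, Continuous fun x => Φ q x * Φ r x := fun q r => (hΦc q).mul (hΦc r)
  have hRc : Continuous R := by
    simp only [hR]
    refine (hHc.sub (continuous_const.mul ?_)).add (continuous_const.mul ?_)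
    · exact continuous_finsetSum _ (fun r _ => h1c r)
    · exact continuous_finsetSum _ (fun r _ => continuous_finsetSum _ (fun q _ => h2c q r))
  have hint1 : ∫ x in (0:ℝ)..1, H' x ≤ ∫ x in (0:ℝ)..1, R x := by
    apply intervalIntegral.integral_mono_on (by norm_num)
    · exact hH'c.intervalIntegrable _ _
    · exact hRc.intervalIntegrable _ _
    · intro x _
      exact hptw x
  have a1 : ∫ x in (0:ℝ)..1, p * ∑ r ∈ F, (H x * Φ r x)
      = p * ∑ r ∈ F, ∫ x in (0:ℝ)..1, H x * Φ r x := by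
    rw [intervalIntegral.integral_const_mul, intervalIntegral.integral_finsetSum]
    intro r _
    exact (h1c r).intervalIntegrable _ _
  have a2 : ∫ x in (0:ℝ)..1, p ^ 2 * ∑ r ∈ F, ∑ q ∈ F.filter (· < r), Φ q x * Φ r x
      = p ^ 2 * ∑ r ∈ F, ∑ q ∈ F.filter (· < r), ∫ x in (0:ℝ)..1, Φ q x * Φ r x := by
    rw [intervalIntegral.integral_const_mul, intervalIntegral.integral_finsetSum]
    · congr 1
      apply Finset.sum_congr rfl
      intro r _
      rw [intervalIntegral.integral_finsetSum]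
      intro q _
      exact (h2c q r).intervalIntegrable _ _
    · intro r _
      exact (continuous_finsetSum _ (fun q _ => h2c q r)).intervalIntegrable _ _
  have hRint : ∫ x in (0:ℝ)..1, R x = g - p * (∑ r ∈ F, ∫ x in (0:ℝ)..1, H x * Φ r x)
      + p ^ 2 * ∑ r ∈ F, ∑ q ∈ F.filter (· < r), ∫ x in (0:ℝ)..1, Φ q x * Φ r x := by
    have ii1 : IntervalIntegrable (fun x => H x) volume 0 1 := hHc.intervalIntegrable _ _
    have c2 : Continuous (fun x => p * ∑ r ∈ F, (H x * Φ r x)) :=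
      continuous_const.mul (continuous_finsetSum _ (fun r _ => h1c r))
    have c3 : Continuous (fun x => p ^ 2 * ∑ r ∈ F, ∑ q ∈ F.filter (· < r), Φ q x * Φ r x) :=
      continuous_const.mul (continuous_finsetSum _ (fun r _ =>
        continuous_finsetSum _ (fun q _ => h2c q r)))
    have ii2 : IntervalIntegrable (fun x => p * ∑ r ∈ F, (H x * Φ r x)) volume 0 1 :=
      c2.intervalIntegrable _ _
    have ii3 : IntervalIntegrable
        (fun x => p ^ 2 * ∑ r ∈ F, ∑ q ∈ F.filter (· < r), Φ q x * Φ r x) volume 0 1 :=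
      c3.intervalIntegrable _ _
    simp only [hR]
    rw [intervalIntegral.integral_add (ii1.sub ii2) ii3, intervalIntegral.integral_sub ii1 ii2, a1, a2]
  -- first order term
  have hA : ∀ r ∈ F, g / 2 * ψ r ≤ ∫ x in (0:ℝ)..1, H x * Φ r x := by
    intro r hr
    have hr0 := hrpos r hr
    have hrR : (0:ℝ) < r := by exact_mod_cast hr0
    have hfc : Continuous fun u : ℝ => tent (ψ r) (u - γ) :=
      (tent_continuous (ψ r)).comp (continuous_id.sub continuous_const)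
    have hfper : ∀ x : ℝ, (fun u : ℝ => tent (ψ r) (u - γ)) (x + 1)
        = (fun u : ℝ => tent (ψ r) (u - γ)) x := by
      intro x
      simp only
      rw [show x + 1 - γ = (x - γ) + 1 by ring, tent_add_one]
    have hm : (g - L / r) * (∫ u in (0:ℝ)..1, tent (ψ r) (u - γ))
        ≤ ∫ x in (0:ℝ)..1, H x * tent (ψ r) ((r:ℝ) * x - γ) :=
      mixing_ge hr0 hL0 hL hHc hfc hfper (fun x => tent_nonneg _ _)
    rw [tent_integral (hψpos r hr) (hψle r hr)] at hm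
    have hLr : L / r ≤ g / 2 := by
      have h1 : 2 * L / g ≤ r := by
        have h2 : (Y0 : ℝ) ≤ r := by
          have : Y0 ≤ r := le_trans (le_max_right _ _) (hF r hr).1
          exact_mod_cast this
        linarith
      rw [div_le_iff₀ hgpos] at h1
      rw [div_le_iff₀ hrR]
      linarith
    have hψ0 := (hψpos r hr).le
    have h3 : g / 2 * ψ r ≤ (g - L / r) * ψ r :=
      mul_le_mul_of_nonneg_right (by linarith) hψ0
    exact h3.trans hm
  have hAsum : g / 2 * M ≤ ∑ r ∈ F, ∫ x in (0:ℝ)..1, H x * Φ r x := by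
    rw [hM, Finset.mul_sum]
    exact Finset.sum_le_sum hA
  -- second order term
  have hB : ∀ r ∈ F, ∑ q ∈ F.filter (· < r), ∫ x in (0:ℝ)..1, Φ q x * Φ r x ≤ 3 * M * ψ r := by
    intro r hr
    have h1 : ∑ q ∈ F.filter (· < r), ∫ x in (0:ℝ)..1, Φ q x * Φ r x
        ≤ ∑ q ∈ F.filter (· < r), (2 * ψ q + (Nat.gcd q r : ℝ) / r) * ψ r := by
      apply Finset.sum_le_sum
      intro q hq
      have hq' := (Finset.mem_filter.mp hq).1
      exact tent_overlap (hrpos q hq') (hrpos r hr) (hψpos q hq') (hψpos r hr) (hψle r hr) γ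
    refine h1.trans ?_
    have h2 : ∑ q ∈ F.filter (· < r), (2 * ψ q + (Nat.gcd q r : ℝ) / r) * ψ r
        = (2 * ∑ q ∈ F.filter (· < r), ψ q
            + (∑ q ∈ F.filter (· < r), (Nat.gcd q r : ℝ)) / r) * ψ r := by
      rw [← Finset.sum_mul, Finset.sum_add_distrib, Finset.mul_sum, Finset.sum_div]
    rw [h2]
    apply mul_le_mul_of_nonneg_right _ (hψpos r hr).le
    have h3 : ∑ q ∈ F.filter (· < r), ψ q ≤ M := by
      apply Finset.sum_le_sum_of_subset_of_nonneg (Finset.filter_subset _ _)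
      intro i hi _
      exact (hψpos i hi).le
    have h4 := hFD r hr
    linarith
  have hBsum : ∑ r ∈ F, ∑ q ∈ F.filter (· < r), ∫ x in (0:ℝ)..1, Φ q x * Φ r x ≤ 3 * M * M := by
    have : ∑ r ∈ F, ∑ q ∈ F.filter (· < r), ∫ x in (0:ℝ)..1, Φ q x * Φ r x
        ≤ ∑ r ∈ F, 3 * M * ψ r := Finset.sum_le_sum hB
    refine this.trans (le_of_eq ?_)
    rw [← Finset.mul_sum]
  -- conclude
  have hpM : p * M = g / 12 := by
    rw [hp]
    field_simp
  have h1 : p * (g / 2 * M) ≤ p * ∑ r ∈ F, ∫ x in (0:ℝ)..1, H x * Φ r x :=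
    mul_le_mul_of_nonneg_left hAsum hp0.le
  have h2 : p ^ 2 * ∑ r ∈ F, ∑ q ∈ F.filter (· < r), ∫ x in (0:ℝ)..1, Φ q x * Φ r x
      ≤ p ^ 2 * (3 * M * M) := mul_le_mul_of_nonneg_left hBsum (by positivity)
  have h3 : p * (g / 2 * M) = g ^ 2 / 24 := by
    calc p * (g / 2 * M) = (p * M) * (g / 2) := by ring
      _ = g ^ 2 / 24 := by rw [hpM]; ring
  have h4 : p ^ 2 * (3 * M * M) = g ^ 2 / 48 := by
    calc p ^ 2 * (3 * M * M) = 3 * (p * M) ^ 2 := by ring
      _ = g ^ 2 / 48 := by rw [hpM]; ring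
  calc ∫ x in (0:ℝ)..1, H' x ≤ ∫ x in (0:ℝ)..1, R x := hint1
    _ = g - p * (∑ r ∈ F, ∫ x in (0:ℝ)..1, H x * Φ r x)
      + p ^ 2 * ∑ r ∈ F, ∑ q ∈ F.filter (· < r), ∫ x in (0:ℝ)..1, Φ q x * Φ r x := hRint
    _ ≤ g - g ^ 2 / 48 := by
      rw [h3] at h1
      rw [h4] at h2
      linarith

end Vale.Agent.Lib.P028
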