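import Vale.Agent.Lib.P028.Core4

open MeasureTheory intervalIntegral Filter

namespace Vale.Agent.Lib.P028

/-- The hypothesis produced by the level selection. -/
def HasBlocks (ψ : ℕ → ℝ) : Prop :=
  ∀ Y : ℕ, ∃ (F : Finset ℕ) (D : ℝ),
      (∀ r ∈ F, Y ≤ r ∧ 0 < ψ r ∧ ψ r ≤ 1 / 2) ∧
      (∀ r ∈ F, (∑ q ∈ F.filter (· < r), (Nat.gcd q r : ℝ)) / r ≤ D) ∧
      1 ≤ ∑ r ∈ F, ψ r ∧ D ≤ ∑ r ∈ F, ψ r

lemma isGood_one (γ : ℝ) (ψ : ℕ → ℝ) (X : ℕ) : IsGood γ ψ X (fun _ => 1) :=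
  ⟨⟨0, le_rfl, fun x y => by simp⟩, fun x => by simp, fun _ _ => rfl⟩

lemma integral_nonneg_of_good {γ : ℝ} {ψ : ℕ → ℝ} {X : ℕ} {H : ℝ → ℝ} (hH : IsGood γ ψ X H) :
    0 ≤ ∫ x in (0:ℝ)..1, H x :=
  intervalIntegral.integral_nonneg (by norm_num) (fun x _ => (hH.2.1 x).1)

lemma exists_small {γ : ℝ} {ψ : ℕ → ℝ} (X : ℕ) (hb : HasBlocks ψ) {ε : ℝ} (hε : 0 < ε) :
    ∃ H, IsGood γ ψ X H ∧ ∫ x in (0:ℝ)..1, H x < ε := by
  by_contra hcon
  push Not at hcon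
  set I : Set ℝ := {v | ∃ H, IsGood γ ψ X H ∧ v = ∫ x in (0:ℝ)..1, H x} with hI
  have hne : I.Nonempty := ⟨_, fun _ => 1, isGood_one γ ψ X, rfl⟩
  have hbd : BddBelow I := ⟨0, by
    rintro v ⟨H, hH, rfl⟩
    exact integral_nonneg_of_good hH⟩
  set i := sInf I with hi
  have hiε : ε ≤ i := by
    apply le_csInf hne
    rintro v ⟨H, hH, rfl⟩
    exact hcon H hH
  have hipos : 0 < i := lt_of_lt_of_le hε hiε
  obtain ⟨v, hv, hvlt⟩ := exists_lt_of_csInf_lt hne (show sInf I < i + i ^ 2 / 96 by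
    have : 0 < i ^ 2 / 96 := by positivity
    linarith)
  obtain ⟨H, hH, rfl⟩ := hv
  have hge : i ≤ ∫ x in (0:ℝ)..1, H x := csInf_le hbd ⟨H, hH, rfl⟩
  have hgpos : 0 < ∫ x in (0:ℝ)..1, H x := lt_of_lt_of_le hipos hge
  obtain ⟨H', hH', hle⟩ := block_step hH hgpos hb
  have hge' : i ≤ ∫ x in (0:ℝ)..1, H' x := csInf_le hbd ⟨H', hH', rfl⟩
  set g := ∫ x in (0:ℝ)..1, H x
  have h1 : i ^ 2 ≤ g ^ 2 := by nlinarith
  nlinarith

lemma null_tail {γ : ℝ} {ψ : ℕ → ℝ} (X : ℕ) (hb : HasBlocks ψ) :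
    volume {x : ℝ | x ∈ Set.Ioc (0:ℝ) 1 ∧ ∀ r : ℕ, X ≤ r → ¬ dn ((r:ℝ) * x - γ) < ψ r} = 0 := by
  set C := {x : ℝ | x ∈ Set.Ioc (0:ℝ) 1 ∧ ∀ r : ℕ, X ≤ r → ¬ dn ((r:ℝ) * x - γ) < ψ r} with hC
  have hkey : ∀ ε : ℝ, 0 < ε → volume C ≤ ENNReal.ofReal ε := by
    intro ε hε
    obtain ⟨H, hH, hlt⟩ := exists_small (γ := γ) X hb hε
    obtain ⟨⟨L, hL0, hL⟩, hH01, hH1⟩ := hH
    have hHc : Continuous H := continuous_of_lip hL0 hL
    set μ := (volume : Measure ℝ).restrict (Set.Ioc (0:ℝ) 1) with hμ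
    have hint : Integrable H μ := (hHc.integrableOn_Ioc).integrable
    have hnn : 0 ≤ᵐ[μ] H := Eventually.of_forall (fun x => (hH01 x).1)
    have h1 := mul_meas_ge_le_integral_of_nonneg hnn hint 1
    rw [one_mul] at h1
    have h2 : ∫ x, H x ∂μ = ∫ x in (0:ℝ)..1, H x :=
      (intervalIntegral.integral_of_le (by norm_num)).symm
    rw [h2] at h1
    have hsub : C ⊆ {x | 1 ≤ H x} := by
      intro x hx
      have := hH1 x hx.2
      simp [this]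
    have hfin : μ {x | 1 ≤ H x} ≠ ⊤ := measure_ne_top _ _
    have h3 : volume C = μ C := by
      rw [hμ, Measure.restrict_apply' measurableSet_Ioc]
      congr 1
      ext x
      constructor
      · intro hx
        exact ⟨hx, hx.1⟩
      · intro hx
        exact hx.1
    rw [h3]
    calc μ C ≤ μ {x | 1 ≤ H x} := measure_mono hsub
      _ = ENNReal.ofReal (μ.real {x | 1 ≤ H x}) := (ofReal_measureReal hfin).symm
      _ ≤ ENNReal.ofReal ε := ENNReal.ofReal_le_ofReal (by linarith)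
  apply le_antisymm _ zero_le
  apply ENNReal.le_of_forall_pos_le_add
  intro ε hε _
  rw [zero_add]
  have := hkey ε hε
  simpa using this

/-- The main theorem, starting from the block hypothesis. -/
theorem ae_frequently_of_blocks {γ : ℝ} {ψ : ℕ → ℝ} (hb : HasBlocks ψ) :
    ∀ᵐ x : ℝ, ∃ᶠ q : ℕ in atTop, dn ((q:ℝ) * x - γ) < ψ q := by
  set C : Set ℝ := ⋃ X : ℕ,
    {x : ℝ | x ∈ Set.Ioc (0:ℝ) 1 ∧ ∀ r : ℕ, X ≤ r → ¬ dn ((r:ℝ) * x - γ) < ψ r} with hC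
  have hCnull : volume C = 0 := measure_iUnion_null (fun X => null_tail X hb)
  rw [ae_iff]
  set B : Set ℝ := {x : ℝ | ¬ ∃ᶠ q : ℕ in atTop, dn ((q:ℝ) * x - γ) < ψ q} with hB
  have hsub : B ⊆ ⋃ n : ℤ, (fun x : ℝ => x + -(n:ℝ)) ⁻¹' C := by
    intro x hx
    have hcover : x ∈ ⋃ n : ℤ, Set.Ioc (n:ℝ) ((n:ℝ) + 1) := by
      rw [iUnion_Ioc_intCast]
      exact Set.mem_univ x
    obtain ⟨n, hn⟩ := Set.mem_iUnion.mp hcover
    refine Set.mem_iUnion.mpr ⟨n, ?_⟩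
    simp only [Set.mem_preimage]
    have hx' : ∀ᶠ q : ℕ in atTop, ¬ dn ((q:ℝ) * x - γ) < ψ q := Filter.not_frequently.mp hx
    obtain ⟨X, hX⟩ := eventually_atTop.mp hx'
    refine Set.mem_iUnion.mpr ⟨X, ?_, ?_⟩
    · constructor
      · linarith [hn.1]
      · linarith [hn.2]
    · intro r hr
      have h1 : (r:ℝ) * (x + -(n:ℝ)) - γ = ((r:ℝ) * x - γ) + ((-(r:ℤ) * n : ℤ) : ℝ) := by
        push_cast
        ring
      rw [h1, dn_add_int]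
      exact hX r hr
  apply measure_mono_null hsub
  apply measure_iUnion_null
  intro n
  rw [measure_preimage_add_right]
  exact hCnull

end Vale.Agent.Lib.P028
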