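import Mathlib

namespace Vale.Agent.Lib.P028

/-- The average `(1/r) * ∑ gcd(q,r)` over the `q` with `1 ≤ q < r` in the support of `ψ`. -/
noncomputable def gcdAvg (ψ : ℕ → ℝ) (r : ℕ) : ℝ :=
  (∑ q ∈ (Finset.Ico 1 r).filter (fun q => ψ q ≠ 0), (Nat.gcd q r : ℝ)) / r

end Vale.Agent.Lib.P028
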