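import Vale.Agent.Lib.P028.Core5
import Vale.Agent.Lib.P028.Defs

open MeasureTheory intervalIntegral Filter

namespace Vale.Agent.Lib.P028

lemma gcdAvg_nonneg (ψ : ℕ → ℝ) (r : ℕ) : 0 ≤ gcdAvg ψ r := by
  unfold gcdAvg
  apply div_nonneg
  · exact Finset.sum_nonneg (fun q _ => Nat.cast_nonneg _)
  · exact Nat.cast_nonneg _

/-- The dyadic level of a real number at least one. -/
noncomputable def lev (t : ℝ) : ℕ := Nat.log 2 ⌊t⌋₊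

lemma lev_bounds {t : ℝ} (ht : 1 ≤ t) : (2:ℝ) ^ lev t ≤ t ∧ t < (2:ℝ) ^ (lev t + 1) := by
  have hn : ⌊t⌋₊ ≠ 0 := by
    have : 1 ≤ ⌊t⌋₊ := Nat.le_floor (by simpa using ht)
    omega
  have h0 : 0 ≤ t := by linarith
  constructor
  · have h1 : 2 ^ Nat.log 2 ⌊t⌋₊ ≤ ⌊t⌋₊ := Nat.pow_log_le_self 2 hn
    have h2 : ((2 ^ Nat.log 2 ⌊t⌋₊ : ℕ) : ℝ) ≤ (⌊t⌋₊ : ℝ) := by exact_mod_cast h1
    have h3 : (⌊t⌋₊ : ℝ) ≤ t := Nat.floor_le h0
    unfold lev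
    push_cast at h2
    linarith
  · have h1 : ⌊t⌋₊ < 2 ^ (Nat.log 2 ⌊t⌋₊ + 1) := Nat.lt_pow_succ_log_self (by norm_num) _
    have h2 : ⌊t⌋₊ + 1 ≤ 2 ^ (Nat.log 2 ⌊t⌋₊ + 1) := h1
    have h3 : ((⌊t⌋₊ + 1 : ℕ) : ℝ) ≤ ((2 ^ (Nat.log 2 ⌊t⌋₊ + 1) : ℕ) : ℝ) := by exact_mod_cast h2
    have h4 : t < (⌊t⌋₊ : ℝ) + 1 := Nat.lt_floor_add_one t
    unfold lev
    push_cast at h3
    linarith

/-- The weight in the divergence hypothesis. -/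
noncomputable def wt (ψ : ℕ → ℝ) (r : ℕ) : ℝ :=
  ψ r / ((1 + gcdAvg ψ r) * (1 + Real.log (1 + gcdAvg ψ r)) ^ 2)

lemma wt_le {ψ : ℕ → ℝ} (hψ : ∀ q, 0 ≤ ψ q) (r : ℕ) :
    wt ψ r ≤ ψ r * (4 / ((2:ℝ) ^ lev (1 + gcdAvg ψ r) * (1 + (lev (1 + gcdAvg ψ r) : ℝ)) ^ 2)) := by
  set t := 1 + gcdAvg ψ r with ht
  have ht1 : 1 ≤ t := by
    have := gcdAvg_nonneg ψ r
    linarith
  set i := lev t with hi
  have hb := (lev_bounds ht1).1
  have hpos : (0:ℝ) < (2:ℝ) ^ i := by positivity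
  have hlog : (i:ℝ) * Real.log 2 ≤ Real.log t := by
    have h1 : Real.log ((2:ℝ) ^ i) ≤ Real.log t := Real.log_le_log hpos hb
    rwa [Real.log_pow] at h1
  have hlog2 : (1:ℝ) / 2 ≤ Real.log 2 := by
    have := Real.log_two_gt_d9
    linarith
  have hi0 : (0:ℝ) ≤ i := Nat.cast_nonneg i
  have h1 : (1 + (i:ℝ)) / 2 ≤ 1 + Real.log t := by
    have : (i:ℝ) * (1 / 2) ≤ (i:ℝ) * Real.log 2 := mul_le_mul_of_nonneg_left hlog2 hi0
    linarith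
  have h2 : ((1 + (i:ℝ)) / 2) ^ 2 ≤ (1 + Real.log t) ^ 2 :=
    pow_le_pow_left₀ (by positivity) h1 2
  have hden : (2:ℝ) ^ i * ((1 + (i:ℝ)) / 2) ^ 2 ≤ t * (1 + Real.log t) ^ 2 :=
    mul_le_mul hb h2 (by positivity) (by linarith)
  have hden0 : 0 < (2:ℝ) ^ i * ((1 + (i:ℝ)) / 2) ^ 2 := by positivity
  unfold wt
  calc ψ r / (t * (1 + Real.log t) ^ 2) ≤ ψ r / ((2:ℝ) ^ i * ((1 + (i:ℝ)) / 2) ^ 2) :=
        div_le_div_of_nonneg_left (hψ r) hden0 hden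
    _ = ψ r * (4 / ((2:ℝ) ^ i * (1 + (i:ℝ)) ^ 2)) := by
        field_simp
        ring

lemma wt_nonneg {ψ : ℕ → ℝ} (hψ : ∀ q, 0 ≤ ψ q) (r : ℕ) : 0 ≤ wt ψ r := by
  unfold wt
  have h0 := gcdAvg_nonneg ψ r
  have h1 : 0 ≤ Real.log (1 + gcdAvg ψ r) := Real.log_nonneg (by linarith)
  apply div_nonneg (hψ r)
  positivity

lemma summable_aux : Summable fun i : ℕ => 8 / (1 + (i:ℝ)) ^ 2 := by
  have h1 : Summable fun n : ℕ => 1 / ((n:ℝ)) ^ 2 := Real.summable_one_div_nat_pow.mpr (by norm_num)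
  have h2 : Summable fun n : ℕ => 1 / (((n + 1 : ℕ):ℝ)) ^ 2 := (summable_nat_add_iff 1).mpr h1
  have h3 := h2.mul_left 8
  refine h3.congr ?_
  intro i
  push_cast
  ring

theorem hasBlocks_of_not_summable {ψ : ℕ → ℝ} (hψ : ∀ q, 0 ≤ ψ q) {R : ℕ}
    (hR : ∀ r, R ≤ r → ψ r ≤ 1 / 2) (hdiv : ¬ Summable (wt ψ)) : HasBlocks ψ := by
  classical
  by_contra hcon
  obtain ⟨Y, hY⟩ : ∃ Y : ℕ, ¬ ∃ (F : Finset ℕ) (D : ℝ),
      (∀ r ∈ F, Y ≤ r ∧ 0 < ψ r ∧ ψ r ≤ 1 / 2) ∧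
      (∀ r ∈ F, (∑ q ∈ F.filter (· < r), (Nat.gcd q r : ℝ)) / r ≤ D) ∧
      1 ≤ ∑ r ∈ F, ψ r ∧ D ≤ ∑ r ∈ F, ψ r := not_forall.mp hcon
  set Z := max (max Y R) 1 with hZ
  have hZ1 : ∀ r, Z ≤ r → Y ≤ r ∧ R ≤ r ∧ 1 ≤ r := by
    intro r hr
    have h1 : Y ≤ Z := le_trans (le_max_left _ _) (le_max_left _ _)
    have h2 : R ≤ Z := le_trans (le_max_right _ _) (le_max_left _ _)
    have h3 : 1 ≤ Z := le_max_right _ _
    omega
  set ℓ : ℕ → ℕ := fun r => lev (1 + gcdAvg ψ r) with hℓ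
  -- the mass of a level is small
  have hfib : ∀ (i : ℕ) (A : Finset ℕ), (∀ r ∈ A, Z ≤ r ∧ 0 < ψ r ∧ ℓ r = i) →
      ∑ r ∈ A, ψ r < 2 ^ (i + 1) := by
    intro i A hA
    by_contra hlt
    push Not at hlt
    apply hY
    refine ⟨A, 2 ^ (i + 1), ?_, ?_, ?_, hlt⟩
    · intro r hr
      obtain ⟨h1, h2, _⟩ := hA r hr
      obtain ⟨h3, h4, _⟩ := hZ1 r h1
      exact ⟨h3, h2, hR r h4⟩
    · intro r hr
      obtain ⟨h1, h2, h3⟩ := hA r hr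
      have hr1 : 1 ≤ r := (hZ1 r h1).2.2
      have hrpos : (0:ℝ) < r := by exact_mod_cast hr1
      have hsub : A.filter (· < r) ⊆ (Finset.Ico 1 r).filter (fun q => ψ q ≠ 0) := by
        intro q hq
        obtain ⟨hq1, hq2⟩ := Finset.mem_filter.mp hq
        obtain ⟨h5, h6, _⟩ := hA q hq1
        have := (hZ1 q h5).2.2
        exact Finset.mem_filter.mpr ⟨Finset.mem_Ico.mpr ⟨this, hq2⟩, ne_of_gt h6⟩
      have h5 : (∑ q ∈ A.filter (· < r), (Nat.gcd q r : ℝ)) / r ≤ gcdAvg ψ r := by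
        unfold gcdAvg
        apply div_le_div_of_nonneg_right _ hrpos.le
        exact Finset.sum_le_sum_of_subset_of_nonneg hsub (fun _ _ _ => Nat.cast_nonneg _)
      have h6 := (lev_bounds (t := 1 + gcdAvg ψ r) (by
        have := gcdAvg_nonneg ψ r
        linarith)).2
      have h7 : lev (1 + gcdAvg ψ r) = i := h3
      rw [h7] at h6
      linarith
    · have h1 : (1:ℝ) ≤ 2 ^ (i + 1) := one_le_pow₀ (by norm_num)
      linarith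
  -- hence the sum over a finite set far out is bounded
  set C := ∑' i : ℕ, 8 / (1 + (i:ℝ)) ^ 2 with hC
  have hfar : ∀ A : Finset ℕ, (∀ r ∈ A, Z ≤ r) → ∑ r ∈ A, wt ψ r ≤ C := by
    intro A hA
    have hsplit : ∑ r ∈ A, wt ψ r = ∑ i ∈ A.image ℓ, ∑ r ∈ A.filter (fun r => ℓ r = i), wt ψ r :=
      (Finset.sum_fiberwise_of_maps_to (fun x hx => Finset.mem_image_of_mem ℓ hx) _).symm
    rw [hsplit]
    have hone : ∀ i ∈ A.image ℓ, ∑ r ∈ A.filter (fun r => ℓ r = i), wt ψ r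
        ≤ 8 / (1 + (i:ℝ)) ^ 2 := by
      intro i _
      set A' := (A.filter (fun r => ℓ r = i)).filter (fun r => 0 < ψ r) with hA'
      have h1 : ∑ r ∈ A', ψ r < 2 ^ (i + 1) := by
        apply hfib
        intro r hr
        obtain ⟨hr1, hr2⟩ := Finset.mem_filter.mp hr
        obtain ⟨hr3, hr4⟩ := Finset.mem_filter.mp hr1
        exact ⟨hA r hr3, hr2, hr4⟩
      have h2 : ∑ r ∈ A', ψ r = ∑ r ∈ A.filter (fun r => ℓ r = i), ψ r := by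
        apply Finset.sum_filter_of_ne
        intro r _ hne
        exact lt_of_le_of_ne (hψ r) (Ne.symm hne)
      have h3 : ∑ r ∈ A.filter (fun r => ℓ r = i), wt ψ r
          ≤ ∑ r ∈ A.filter (fun r => ℓ r = i), ψ r * (4 / ((2:ℝ) ^ i * (1 + (i:ℝ)) ^ 2)) := by
        apply Finset.sum_le_sum
        intro r hr
        have h4 := wt_le hψ r
        have h5 : lev (1 + gcdAvg ψ r) = i := (Finset.mem_filter.mp hr).2
        rwa [h5] at h4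
      refine h3.trans ?_
      rw [← Finset.sum_mul, ← h2]
      have h6 : (0:ℝ) ≤ 4 / ((2:ℝ) ^ i * (1 + (i:ℝ)) ^ 2) := by positivity
      have h7 : (∑ r ∈ A', ψ r) * (4 / ((2:ℝ) ^ i * (1 + (i:ℝ)) ^ 2))
          ≤ 2 ^ (i + 1) * (4 / ((2:ℝ) ^ i * (1 + (i:ℝ)) ^ 2)) :=
        mul_le_mul_of_nonneg_right h1.le h6
      refine h7.trans (le_of_eq ?_)
      rw [pow_succ]
      field_simp
      ring
    calc ∑ i ∈ A.image ℓ, ∑ r ∈ A.filter (fun r => ℓ r = i), wt ψ r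
        ≤ ∑ i ∈ A.image ℓ, 8 / (1 + (i:ℝ)) ^ 2 := Finset.sum_le_sum hone
      _ ≤ C := summable_aux.sum_le_tsum _ (fun i _ => by positivity)
  apply hdiv
  apply summable_of_sum_le (wt_nonneg hψ) (c := C + ∑ r ∈ Finset.range Z, wt ψ r)
  intro s
  rw [← Finset.sum_filter_add_sum_filter_not s (fun r => Z ≤ r)]
  have h1 : ∑ r ∈ s.filter (fun r => Z ≤ r), wt ψ r ≤ C :=
    hfar _ (fun r hr => (Finset.mem_filter.mp hr).2)
  have h2 : ∑ r ∈ s.filter (fun r => ¬ Z ≤ r), wt ψ r ≤ ∑ r ∈ Finset.range Z, wt ψ r := by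
    apply Finset.sum_le_sum_of_subset_of_nonneg
    · intro r hr
      have := (Finset.mem_filter.mp hr).2
      exact Finset.mem_range.mpr (by omega)
    · intro i _ _
      exact wt_nonneg hψ i
  linarith

/-- Main theorem. -/
theorem main_theorem (γ : ℝ) (ψ : ℕ → ℝ) (hψ : ∀ q, 0 ≤ ψ q)
    (hdiv : ¬ Summable fun r =>
      ψ r / ((1 + gcdAvg ψ r) * (1 + Real.log (1 + gcdAvg ψ r)) ^ 2)) :
    ∀ᵐ x : ℝ, ∃ᶠ q : ℕ in atTop, |(q:ℝ) * x - γ - round ((q:ℝ) * x - γ)| < ψ q := by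
  by_cases h : ∃ᶠ r : ℕ in atTop, 1 / 2 < ψ r
  · apply Eventually.of_forall
    intro x
    exact h.mono (fun r hr => lt_of_le_of_lt (abs_sub_round _) hr)
  · have h' : ∀ᶠ r : ℕ in atTop, ¬ 1 / 2 < ψ r := Filter.not_frequently.mp h
    obtain ⟨R, hR⟩ := eventually_atTop.mp h'
    have hb : HasBlocks ψ := hasBlocks_of_not_summable hψ (R := R)
      (fun r hr => not_lt.mp (hR r hr)) hdiv
    exact ae_frequently_of_blocks hb

end Vale.Agent.Lib.P028
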